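import Vale.Agent.P088.R2.H230.W.CvH
import Vale.Agent.P088.R2.H644.W.Flat
import Vale.Agent.P088.R2.H644.W.Rad
import Vale.Agent.P088.R2.H747.S.SemS

/-!
# P088, stage 3, leaf RSf: the certificate

Where the tensors are flat, `Hess l = a` and `S' ≥ 1/2`, `|S''| ≤ a / 16`, the weight
`Φ(u) + Ψ(u + S(r), r)` is convex with margin `a (N + G) / 2`.
-/

open Set Filter
open scoped ContDiff Topology

noncomputable section

namespace Vale.Agent.P088.R2.H53.RS

open Vale.Agent.P088.LR Vale.Agent.P088.HY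
open Vale.Agent.P088.R2.H961.GW Vale.Agent.P088.R2.H960.W Vale.Agent.P088.R2.H644
open Vale.Agent.P088.R2.H644.Ch Vale.Agent.P088.R2.H230.W
open Vale.Agent.P088.R2.H747.SW (ss)

variable {n : ℕ}

/-- The arithmetic of the certificate. -/
theorem alg {N K G D01 D20 D11 D02 S₁ S₂ gu gr tu tr a s : ℝ}
    (hN : 0 ≤ N) (hK : 0 ≤ K) (hG : 0 ≤ G) (h20 : 0 < D20) (ha : 0 ≤ a) (hs : 0 ≤ s)
    (htu : tu = a * s) (htr : 0 ≤ tr) (hgr : gr ^ 2 ≤ 2 * s) (hS₁ : 1 / 2 ≤ S₁)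
    (h01 : |D01| ≤ 1 / 2 * G) (hS₂ : |S₂| ≤ a / 16)
    (hH : |D02 * D20 - D11 ^ 2| ≤ a / 16 * (G * D20)) :
    a / 2 * (N + G) * s ≤ N * tu + K * gu ^ 2 +
      (G * (tu + S₁ * tr + S₂ * gr ^ 2) + D01 * tr) +
      (D20 * (gu + S₁ * gr) ^ 2 + 2 * D11 * ((gu + S₁ * gr) * gr) + D02 * gr ^ 2) := by
  set F := gu + S₁ * gr with hF
  -- the quadratic part
  have q1 : D20 * F ^ 2 + 2 * D11 * (F * gr) + D02 * gr ^ 2 =
      D20 * (F + D11 / D20 * gr) ^ 2 + (D02 * D20 - D11 ^ 2) / D20 * gr ^ 2 := by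
    field_simp
    ring
  have q2 : -(a / 16 * G) ≤ (D02 * D20 - D11 ^ 2) / D20 := by
    rw [le_div_iff₀ h20]
    have := (abs_le.1 hH).1
    linarith
  have q3 : -(a / 16 * G) * gr ^ 2 ≤ (D02 * D20 - D11 ^ 2) / D20 * gr ^ 2 :=
    mul_le_mul_of_nonneg_right q2 (sq_nonneg _)
  have q4 : 0 ≤ D20 * (F + D11 / D20 * gr) ^ 2 := by positivity
  have q5 : a / 16 * G * gr ^ 2 ≤ a / 16 * G * (2 * s) :=
    mul_le_mul_of_nonneg_left hgr (by positivity)
  -- the linear part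
  have p1 : -(a / 16) * gr ^ 2 ≤ S₂ * gr ^ 2 :=
    mul_le_mul_of_nonneg_right (abs_le.1 hS₂).1 (sq_nonneg _)
  have p2 : G * (-(a / 16) * gr ^ 2) ≤ G * (S₂ * gr ^ 2) := mul_le_mul_of_nonneg_left p1 hG
  have p3 : -(1 / 2 * G) * tr ≤ D01 * tr := mul_le_mul_of_nonneg_right (abs_le.1 h01).1 htr
  have p4 : 1 / 2 * tr ≤ S₁ * tr := mul_le_mul_of_nonneg_right hS₁ htr
  have p5 : G * (1 / 2 * tr) ≤ G * (S₁ * tr) := mul_le_mul_of_nonneg_left p4 hG
  have p6 : 0 ≤ K * gu ^ 2 := by positivity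
  have p7 : 0 ≤ a * (N * s) := by positivity
  have p8 : 0 ≤ a * (G * s) := by positivity
  rw [q1, htu]
  nlinarith

/-! ## The slots are flat -/

theorem TH_cg {U : Set (VV n)} {f h : VV n → ℝ} {z : VV n} (hU : IsOpen U)
    (e : ∀ z ∈ U, f z = h z) (hz : z ∈ U) (σ τ : Sl (VV n) (Fin n)) (A B : Fin n → ℝ) :
    TH σ τ f z A B = TH σ τ h z A B := by
  have d1 : ∀ i, σ.D i f z = σ.D i h z := fun i => D_congr σ hU e i hz
  have d1' : ∀ i, τ.D i f z = τ.D i h z := fun i => D_congr τ hU e i hz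
  have d2 : ∀ i j, σ.D i (σ.D j f) z = σ.D i (σ.D j h) z := fun i j =>
    D_congr σ hU (fun w hw => D_congr σ hU e j hw) i hz
  have d2' : ∀ i j, τ.D i (τ.D j f) z = τ.D i (τ.D j h) z := fun i j =>
    D_congr τ hU (fun w hw => D_congr τ hU e j hw) i hz
  have d3 : ∀ i j, σ.D i (τ.D j f) z = σ.D i (τ.D j h) z := fun i j =>
    D_congr σ hU (fun w hw => D_congr τ hU e j hw) i hz
  unfold TH Sl.Hc Mc
  simp only [d1, d1', d2, d2', d3]

section slots

variable {s₁ s₂ : MF n} {f : VV n → ℝ} {z : VV n}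

theorem Hc_x (h : ∀ᶠ x in 𝓝 z.1, ∀ i j, s₁ x i j = (1 : Matrix (Fin n) (Fin n) ℝ) i j)
    (i l : Fin n) : (slx (fun _ => 1) s₁).Hc f i l z = (fx n).Hc f i l z := by
  have e1 : ∀ i j, (slx (fun _ => 1) s₁).s i j z = (fx n).s i j z := fun i j =>
    h.self_of_nhds i j
  have e2 : ∀ k i j, (slx (fun _ => 1) s₁).D k ((slx (fun _ => 1) s₁).s i j) z =
      (slx (fun _ => 1) s₁).D k ((fx n).s i j) z := fun k i j => by
    refine D_congr_nhds _ ?_ k
    have : Tendsto (fun z : VV n => z.1) (𝓝 z) (𝓝 z.1) := continuous_fst.continuousAt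
    filter_upwards [this.eventually h] with w hw using hw i j
  unfold Sl.Hc
  simp only [e1, e2]
  rfl

theorem Hc_y (h : ∀ᶠ x in 𝓝 z.2, ∀ i j, s₂ x i j = (1 : Matrix (Fin n) (Fin n) ℝ) i j)
    (i l : Fin n) : (sly (fun _ => 1) s₂).Hc f i l z = (fy n).Hc f i l z := by
  have e1 : ∀ i j, (sly (fun _ => 1) s₂).s i j z = (fy n).s i j z := fun i j =>
    h.self_of_nhds i j
  have e2 : ∀ k i j, (sly (fun _ => 1) s₂).D k ((sly (fun _ => 1) s₂).s i j) z =
      (sly (fun _ => 1) s₂).D k ((fy n).s i j) z := fun k i j => by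
    refine D_congr_nhds _ ?_ k
    have : Tendsto (fun z : VV n => z.2) (𝓝 z) (𝓝 z.2) := continuous_snd.continuousAt
    filter_upwards [this.eventually h] with w hw using hw i j
  unfold Sl.Hc
  simp only [e1, e2]
  rfl

theorem TH_one (h : ∀ᶠ x in 𝓝 z.1, ∀ i j, s₁ x i j = (1 : Matrix (Fin n) (Fin n) ℝ) i j)
    (h' : ∀ᶠ x in 𝓝 z.2, ∀ i j, s₂ x i j = (1 : Matrix (Fin n) (Fin n) ℝ) i j)
    (A B : Fin n → ℝ) : TH (slx (fun _ => 1) s₁) (sly (fun _ => 1) s₂) f z A B =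
      TH (fx n) (fy n) f z A B := by
  have e1 : ∀ i j, (slx (fun _ => 1) s₁).s i j z = (fx n).s i j z := fun i j =>
    h.self_of_nhds i j
  have e2 : ∀ i j, (sly (fun _ => 1) s₂).s i j z = (fy n).s i j z := fun i j =>
    h'.self_of_nhds i j
  have e3 : ∀ i k, Mc (slx (fun _ => 1) s₁) (sly (fun _ => 1) s₂) f i k z =
      Mc (fx n) (fy n) f i k z := fun i k => by
    unfold Mc
    simp only [e1, e2]
    rfl
  unfold TH
  simp only [Hc_x h, Hc_y h', e3]

theorem ss_x (h : ∀ i j, s₁ z.1 i j = (1 : Matrix (Fin n) (Fin n) ℝ) i j) (A : Fin n → ℝ) :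
    ss (slx (fun _ => 1) s₁) A z = ∑ i, A i ^ 2 := by
  have e1 : ∀ i j, (slx (fun _ => 1) s₁).s i j z = if i = j then 1 else 0 := fun i j => by
    rw [← Matrix.one_apply]; exact h i j
  unfold ss
  simp only [e1]
  refine Finset.sum_congr rfl fun i _ => ?_
  simp [pow_two]

theorem ss_y (h : ∀ i j, s₂ z.2 i j = (1 : Matrix (Fin n) (Fin n) ℝ) i j) (A : Fin n → ℝ) :
    ss (sly (fun _ => 1) s₂) A z = ∑ i, A i ^ 2 := by
  have e1 : ∀ i j, (sly (fun _ => 1) s₂).s i j z = if i = j then 1 else 0 := fun i j => by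
    rw [← Matrix.one_apply]; exact h i j
  unfold ss
  simp only [e1]
  refine Finset.sum_congr rfl fun i _ => ?_
  simp [pow_two]

end slots

/-! ## The functions `|x - y|²`, `|x - y|` and `l(x) + l(y)` -/

theorem TH_q (z : VV n) (A B : Fin n → ℝ) :
    TH (fx n) (fy n) qq z A B = 2 * ∑ i, (A i - B i) ^ 2 := by
  have e1 : ∀ i l, dx i (dx l qq) z = if l = i then 2 else 0 := fun i l => by
    have : dx l qq = fun z : VV n => 2 * qv l z := funext fun z => dx_qq l z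
    rw [this, dx_eq, dd_const_mul, ← dx_eq, dx_qv]
    split_ifs <;> simp
  have e2 : ∀ i k, dx i (dy k qq) z = if k = i then -2 else 0 := fun i k => by
    have : dy k qq = fun z : VV n => -2 * qv k z := funext fun z => dy_qq k z
    rw [this, dx_eq, dd_const_mul, ← dx_eq, dx_qv]
    split_ifs <;> simp
  have e3 : ∀ k m, dy k (dy m qq) z = if m = k then 2 else 0 := fun k m => by
    have : dy m qq = fun z : VV n => -2 * qv m z := funext fun z => dy_qq m z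
    rw [this, dy_eq, dd_const_mul, ← dy_eq, dy_qv]
    split_ifs <;> simp
  rw [f_TH isOpen_univ contDiff_qq.contDiffOn (mem_univ z)]
  simp only [e1, e2, e3, ite_mul, zero_mul, Finset.sum_ite_eq', Finset.mem_univ, if_true,
    Finset.mul_sum]
  rw [← Finset.sum_add_distrib, ← Finset.sum_add_distrib]
  exact Finset.sum_congr rfl fun i _ => by ring

theorem GA_q (z : VV n) (A B : Fin n → ℝ) :
    GA (fx n) (fy n) qq z A B = 2 * ∑ i, qv i z * (A i - B i) := by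
  unfold GA
  simp only [fx_Gr, fy_Gr, dx_qq, dy_qq, Finset.mul_sum]
  rw [← Finset.sum_add_distrib]
  exact Finset.sum_congr rfl fun i _ => by ring

theorem AB_le (A B : Fin n → ℝ) :
    ∑ i, (A i - B i) ^ 2 ≤ 2 * (∑ i, A i ^ 2 + ∑ i, B i ^ 2) := by
  rw [← Finset.sum_add_distrib, Finset.mul_sum]
  exact Finset.sum_le_sum fun i _ => by nlinarith [sq_nonneg (A i + B i)]

section rad

variable {U : Set (VV n)} {r : VV n → ℝ} {z : VV n}

/-- Cauchy–Schwarz. -/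
theorem GA_q_sq (z : VV n) (A B : Fin n → ℝ) :
    GA (fx n) (fy n) qq z A B ^ 2 ≤ 4 * (qq z * ∑ i, (A i - B i) ^ 2) := by
  have h := Finset.sum_mul_sq_le_sq_mul_sq Finset.univ (fun i => qv i z) fun i => A i - B i
  rw [GA_q, qq_eq]
  nlinarith

theorem rr_facts (hU : IsOpen U) (sr : Sm U r) (e : ∀ w ∈ U, r w ^ 2 = qq w)
    (r0 : ∀ w ∈ U, 0 < r w) (hz : z ∈ U) (A B : Fin n → ℝ) :
    0 ≤ TH (fx n) (fy n) r z A B ∧
    GA (fx n) (fy n) r z A B ^ 2 ≤ 2 * (∑ i, A i ^ 2 + ∑ i, B i ^ 2) := by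
  have ok := ok_fx (n := n) hU
  have ot := ok_fy (n := n) hU
  have h0 := r0 z hz
  have e1 : TH (fx n) (fy n) (fun w => r w * r w) z A B = TH (fx n) (fy n) qq z A B :=
    TH_cg hU (fun w hw => by rw [← e w hw, pow_two]) hz _ _ A B
  have e2 : GA (fx n) (fy n) (fun w => r w * r w) z A B = GA (fx n) (fy n) qq z A B := by
    unfold GA Gr
    have k1 : ∀ j, (fx n).D j (fun w => r w * r w) z = (fx n).D j qq z := fun j =>
      D_congr _ hU (fun w hw => by rw [← e w hw, pow_two]) j hz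
    have k2 : ∀ j, (fy n).D j (fun w => r w * r w) z = (fy n).D j qq z := fun j =>
      D_congr _ hU (fun w hw => by rw [← e w hw, pow_two]) j hz
    simp only [k1, k2]
  have e3 : GA (fx n) (fy n) (fun w => r w * r w) z A B =
      2 * r z * GA (fx n) (fy n) r z A B := by
    have k1 : ∀ j, (fx n).D j (fun w => r w * r w) z = 2 * r z * (fx n).D j r z := fun j => by
      rw [D_mul (fx n) hU sr sr j hz]; ring
    have k2 : ∀ j, (fy n).D j (fun w => r w * r w) z = 2 * r z * (fy n).D j r z := fun j => by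
      rw [D_mul (fy n) hU sr sr j hz]; ring
    unfold GA Gr
    simp only [k1, k2, mul_add, Finset.mul_sum, Finset.sum_mul]
    congr 1
    · exact Finset.sum_congr rfl fun i _ => Finset.sum_congr rfl fun j _ => by ring
    · exact Finset.sum_congr rfl fun i _ => Finset.sum_congr rfl fun j _ => by ring
  rw [TH_mul ok ot sr sr hz] at e1
  have e4 := TH_q z A B
  have e5 := GA_q_sq z A B
  rw [← e2, e3, ← e z hz] at e5
  set g := GA (fx n) (fy n) r z A B
  set t := TH (fx n) (fy n) r z A B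
  set S := ∑ i, (A i - B i) ^ 2 with hS
  have e6 : g ^ 2 ≤ S := by
    have h1 : 4 * r z ^ 2 * g ^ 2 ≤ 4 * r z ^ 2 * S := by nlinarith
    exact le_of_mul_le_mul_left h1 (by positivity)
  have e7 : 2 * (r z * t) = 2 * S - 2 * g ^ 2 := by
    rw [← e4, ← e1]; ring
  refine ⟨?_, e6.trans (AB_le A B)⟩
  have : 0 ≤ r z * t := by linarith
  exact nonneg_of_mul_nonneg_right this h0

end rad

/-- **The certificate.** -/
theorem cert {U : Set (VV n)} {Φ Φ₁ Φ₂ S S₁ S₂ : ℝ → ℝ} {D : ℕ → ℕ → ℝ → ℝ → ℝ}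
    {u r : VV n → ℝ} {z : VV n} {a : ℝ} (hU : IsOpen U)
    (w : Wd U Φ Φ₁ Φ₂ S S₁ S₂ D u r) (hz : z ∈ U)
    (e : ∀ w ∈ U, r w ^ 2 = qq w) (r0 : ∀ w ∈ U, 0 < r w) (ha : 0 ≤ a)
    (hu : ∀ A B, TH (fx n) (fy n) u z A B = a * (∑ i, A i ^ 2 + ∑ i, B i ^ 2))
    (hN : 0 ≤ Φ₁ (u z)) (hK : 0 ≤ Φ₂ (u z))
    (hG : 0 ≤ D 1 0 (u z + S (r z)) (r z)) (h20 : 0 < D 2 0 (u z + S (r z)) (r z))
    (hS₁ : 1 / 2 ≤ S₁ (r z))
    (h01 : |D 0 1 (u z + S (r z)) (r z)| ≤ 1 / 2 * D 1 0 (u z + S (r z)) (r z))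
    (hS₂ : |S₂ (r z)| ≤ a / 16)
    (hH : |D 0 2 (u z + S (r z)) (r z) * D 2 0 (u z + S (r z)) (r z) -
      D 1 1 (u z + S (r z)) (r z) ^ 2| ≤
      a / 16 * (D 1 0 (u z + S (r z)) (r z) * D 2 0 (u z + S (r z)) (r z)))
    (A B : Fin n → ℝ) :
    a / 2 * (Φ₁ (u z) + D 1 0 (u z + S (r z)) (r z)) * (∑ i, A i ^ 2 + ∑ i, B i ^ 2) ≤
      TH (fx n) (fy n) (wt Φ S D u r) z A B := by
  obtain ⟨h1, h2⟩ := rr_facts hU w.cr.su e r0 hz A B
  rw [TH_wt (ok_fx hU) (ok_fy hU) w hz]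
  exact alg hN hK hG h20 ha (by positivity) (hu A B) h1 h2 hS₁ h01 hS₂ hH

/-- `l(x) + l(y)` where `Hess l = a`. -/
theorem TH_u {l : V n → ℝ} {z : VV n} {a : ℝ} (hl : ContDiff ℝ ∞ l)
    (h1 : ∀ i j, pd i (pd j l) z.1 = if i = j then a else 0)
    (h2 : ∀ i j, pd i (pd j l) z.2 = if i = j then a else 0) (A B : Fin n → ℝ) :
    TH (fx n) (fy n) (fun z : VV n => l z.1 + l z.2) z A B =
      a * (∑ i, A i ^ 2 + ∑ i, B i ^ 2) := by
  have s1 : ContDiff ℝ ∞ fun z : VV n => l z.1 := hl.comp contDiff_fst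
  have s2 : ContDiff ℝ ∞ fun z : VV n => l z.2 := hl.comp contDiff_snd
  have dl : Differentiable ℝ l := hl.differentiable (by simp)
  have dpl : ∀ i, Differentiable ℝ (pd i l) := fun i => by
    have : ContDiff ℝ ∞ (pd i l) := by
      unfold pd
      exact (hl.fderiv_right (m := ∞) (by simp)).clm_apply contDiff_const
    exact this.differentiable (by simp)
  have e1 : ∀ j, dx j (fun z : VV n => l z.1) = fun z => pd j l z.1 := fun j => funext fun z => by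
    rw [← fx_D, fx, Dx_fst (dl z.1), one_mul]
  have e2 : ∀ j, dy j (fun z : VV n => l z.1) = fun z => 0 := fun j => funext fun z => by
    rw [← fy_D, fy, Dy_fst (dl z.1)]
  have e3 : ∀ j, dy j (fun z : VV n => l z.2) = fun z => pd j l z.2 := fun j => funext fun z => by
    rw [← fy_D, fy, Dy_snd (dl z.2), one_mul]
  have e4 : ∀ j, dx j (fun z : VV n => l z.2) = fun z => 0 := fun j => funext fun z => by
    rw [← fx_D, fx, Dx_snd (dl z.2)]
  have g1 : ∀ i j, dx i (fun z : VV n => pd j l z.1) z = if i = j then a else 0 := fun i j => by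
    rw [← fx_D, fx, Dx_fst (dpl j z.1), one_mul, h1]
  have g2 : ∀ i j, dy i (fun z : VV n => pd j l z.2) z = if i = j then a else 0 := fun i j => by
    rw [← fy_D, fy, Dy_snd (dpl j z.2), one_mul, h2]
  have g3 : ∀ i j, dx i (fun z : VV n => pd j l z.2) z = 0 := fun i j => by
    rw [← fx_D, fx, Dx_snd (dpl j z.2)]
  have g0 : ∀ i, dx i (fun _ : VV n => (0 : ℝ)) z = 0 := fun i => by simp [dx]
  have g0' : ∀ i, dy i (fun _ : VV n => (0 : ℝ)) z = 0 := fun i => by simp [dy]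
  rw [TH_add (ok_fx isOpen_univ) (ok_fy isOpen_univ) s1.contDiffOn s2.contDiffOn (mem_univ z),
    f_TH isOpen_univ s1.contDiffOn (mem_univ z), f_TH isOpen_univ s2.contDiffOn (mem_univ z)]
  simp only [e1, e2, e3, e4, g1, g2, g3, g0, g0', ite_mul, zero_mul, Finset.sum_const_zero,
    mul_zero, add_zero, zero_add, Finset.sum_ite_eq, Finset.mem_univ, if_true]
  rw [mul_add, Finset.mul_sum, Finset.mul_sum]
  congr 1 <;> exact Finset.sum_congr rfl fun i _ => by ring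

end Vale.Agent.P088.R2.H53.RS
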