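import Vale.Agent.P088.R2.H768.W.Exi

/-!
# P088, stage 3, leaf RSf: the slow exponential at large levels

The classes of `E02`, `E11` contain the additional factor `h / (1 + T²) ≤ 1 / |T|`,
`T = φ / (τ r)`. Hence `|D02 D20 - D11²| ≤ C τ² D10 D20 / φ` for `φ > 0`.
-/

open scoped ContDiff Topology
open Set Filter

noncomputable section

namespace Vale.Agent.P088.R2.H53.RS

open Vale.Agent.P088.R2.H768.W

theorem aa_sq_le {z : E2} : aa z.2 ^ 2 ≤ wm 3 (-1) z := by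
  have h2 := aa_le_wm' z
  have h3 := aa_le_h z
  have h5 := (aa_pos z.2).le
  have h6 := (wm_pos 2 (-1) z).le
  have e : wm 3 (-1) z = wm 2 (-1) z * hh z := by
    have : hh z = wm 1 0 z := by simp [wm]
    rw [this, wm_mul]; norm_num
  rw [e, pow_two]
  exact mul_le_mul h2 h3 h5 h6

theorem es_w1 {z : E2} (hz : z ∈ Om) : es z * wm (-2) 0 z ≤ 4 * wm 1 (-1) z := by
  have h1 := es_le_aa hz
  have h2 := aa_sq_le (z := z)
  have h6 := (wm_pos (-2) 0 z).le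
  have e : wm 3 (-1) z * wm (-2) 0 z = wm 1 (-1) z := by rw [wm_mul]; norm_num
  calc es z * wm (-2) 0 z ≤ 4 * wm 3 (-1) z * wm (-2) 0 z :=
        mul_le_mul_of_nonneg_right (by linarith) h6
    _ = 4 * (wm 3 (-1) z * wm (-2) 0 z) := by ring
    _ = _ := by rw [e]

theorem aa_sq_le' {z : E2} : aa z.2 ^ 2 ≤ wm 4 (-1) z := by
  have h2 := aa_le_wm' z
  have h3 := aa_le_wm z
  have h5 := (aa_pos z.2).le
  have h6 := (wm_pos 2 (-1) z).le
  have e : wm 4 (-1) z = wm 2 (-1) z * wm 2 0 z := by rw [wm_mul]; norm_num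
  rw [e, pow_two]
  exact mul_le_mul h2 h3 h5 h6

theorem es_w2 {z : E2} (hz : z ∈ Om) : es z * wm (-3) 0 z ≤ 4 * wm 1 (-1) z := by
  have h1 := es_le_aa hz
  have h2 := aa_sq_le' (z := z)
  have h6 := (wm_pos (-3) 0 z).le
  have e : wm 4 (-1) z * wm (-3) 0 z = wm 1 (-1) z := by rw [wm_mul]; norm_num
  calc es z * wm (-3) 0 z ≤ 4 * wm 4 (-1) z * wm (-3) 0 z :=
        mul_le_mul_of_nonneg_right (by linarith) h6
    _ = 4 * (wm 4 (-1) z * wm (-3) 0 z) := by ring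
    _ = _ := by rw [e]

section cls

variable {ι : Type} {τ δ : ι → ℝ}

theorem R10w (_ : ∀ i, |δ i| ≤ 1) :
    Sm Om hh (fun i z => |δ i| * wm 1 (-1) z) fun i z => RR (τ i) (δ i) 1 0 z - 1 := by
  have h := (sm_dt (sm_P1 (ι := ι))).smul hh_pos δ
  refine (h.mono hh_pos 4 (fun i z _ => mul_nonneg (abs_nonneg _) (wm_pos _ _ z).le)
    fun i z hz => ?_).congr fun i z => ?_
  · rw [wm_div]
    have := es_w2 hz
    calc |δ i| * (es z * wm (-2 - 1) 0 z) ≤ |δ i| * (4 * wm 1 (-1) z) :=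
          mul_le_mul_of_nonneg_left (by norm_num; exact this) (abs_nonneg _)
      _ = 4 * (|δ i| * wm 1 (-1) z) := by ring
  · rw [RR_left, RR_zero, A1, kh_Pp, ← dT_Pp]
    ring

theorem E01w : Sm Om hh (fun i z => |τ i * δ i| * wm 1 (-1) z)
    fun i z => RR (τ i) (δ i) 0 1 z - τ i * ga z * RR (τ i) (δ i) 1 0 z := by
  have h := (sm_es.mul hh_pos (DDc (sm_P1 (ι := ι)))).smul hh_pos fun i => τ i * δ i
  refine (h.mono hh_pos 4 (fun i z _ => mul_nonneg (abs_nonneg _) (wm_pos _ _ z).le)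
    fun i z hz => ?_).congr fun i z => ?_
  · have := es_w1 hz
    calc |τ i * δ i| * (es z * wm (-2) 0 z) ≤ |τ i * δ i| * (4 * wm 1 (-1) z) :=
          mul_le_mul_of_nonneg_left this (abs_nonneg _)
      _ = 4 * (|τ i * δ i| * wm 1 (-1) z) := by ring
  · rw [RR_right, RR_left, RR_zero, A2, ← DD_P1]
    ring

theorem R01w (hδ : ∀ i, |δ i| ≤ 1) :
    Sm Om hh (fun i z => |τ i| * wm 1 (-1) z) fun i => RR (τ i) (δ i) 0 1 := by
  have w0 : ∀ (i : ι), ∀ z ∈ Om, 0 ≤ |τ i| * (wm 1 (-1) z * 1) := fun i z _ =>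
    mul_nonneg (abs_nonneg _) (mul_nonneg (wm_pos _ _ z).le zero_le_one)
  have h1 := ((sm_ga.mul hh_pos (R10 (τ := τ) hδ)).smul hh_pos τ)
  have h2 := (E01w (τ := τ) (δ := δ)).mono (w' := fun i z => |τ i| * (wm 1 (-1) z * 1)) hh_pos 1
    w0 fun i z _ => by
      rw [abs_mul, one_mul, mul_one]
      exact mul_le_mul_of_nonneg_right (mul_le_of_le_one_right (abs_nonneg _) (hδ i))
        (wm_pos _ _ z).le
  exact ((h1.add h2).mono hh_pos 1 (fun i z _ => mul_nonneg (abs_nonneg _) (wm_pos _ _ z).le)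
    fun i z _ => by rw [mul_one, one_mul]).congr fun i z => by ring

theorem E11w (hδ : ∀ i, |δ i| ≤ 1) :
    Sm Om hh (fun i z => |τ i * δ i| * (es z * (|δ i| * wm 1 (-1) z)))
      fun i => EE (τ i) (δ i) 1 1 := by
  have h1 := (sm_es.mul hh_pos (DDc (R10w (τ := τ) hδ))).smul hh_pos fun i => τ i * δ i
  refine h1.congr fun i z => ?_
  rw [EE_succ, EE_zero]
  have e : DD (fun z => RR (τ i) (δ i) 1 0 z - 1) z = DD (RR (τ i) (δ i) 1 0) z := by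
    unfold DD dS dT
    rw [fderiv_sub_const]
  rw [e]
  ring

theorem E02w (hδ : ∀ i, |δ i| ≤ 1) :
    Sm Om hh (fun i z => |τ i * δ i| * (es z * (|τ i| * wm 1 (-1) z)))
      fun i => EE (τ i) (δ i) 0 2 := by
  have w0 : ∀ (i : ι), ∀ z ∈ Om, 0 ≤ |τ i * δ i| * (es z * (|τ i| * wm 1 (-1) z)) := fun i z _ =>
    mul_nonneg (abs_nonneg _) (mul_nonneg (es_pos z).le
      (mul_nonneg (abs_nonneg _) (wm_pos _ _ z).le))
  have h1 := (sm_es.mul hh_pos (DDc (R01w (τ := τ) hδ))).smul hh_pos fun i => τ i * δ i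
  have h2 := ((sm_ga1.mul hh_pos (E11w (τ := τ) hδ)).smul hh_pos τ).mono
    (w' := fun i z => |τ i * δ i| * (es z * (|τ i| * wm 1 (-1) z))) hh_pos 1 w0
    fun i z hz => by
      have h3 := w0 i z hz
      rw [one_mul, one_mul]
      calc |τ i| * (|τ i * δ i| * (es z * (|δ i| * wm 1 (-1) z))) =
            |τ i * δ i| * (es z * (|τ i| * wm 1 (-1) z)) * |δ i| := by ring
        _ ≤ |τ i * δ i| * (es z * (|τ i| * wm 1 (-1) z)) * 1 :=
            mul_le_mul_of_nonneg_left (hδ i) h3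
        _ = _ := mul_one _
  exact (h1.add h2).congr fun i z => (EE_succ (τ i) (δ i) 0 1 z).symm

end cls

/-- The improved bounds. -/
theorem cor2 : ∃ C : ℝ, 1 ≤ C ∧ ∀ τ δ : ℝ, 0 ≤ τ → τ ≤ 1 → 0 ≤ δ → δ ≤ 1 → ∀ w ∈ Om,
    |EE τ δ 1 1 w| ≤ C * (τ * δ * es w * (δ * wm 1 (-1) w)) ∧
      |EE τ δ 0 2 w| ≤ C * (τ * δ * es w * (τ * wm 1 (-1) w)) := by
  obtain ⟨C1, c1, h1⟩ := bd_of (E11w (τ := Pm.t) (δ := Pm.d) Pm.hd)
  obtain ⟨C2, c2, h2⟩ := bd_of (E02w (τ := Pm.t) (δ := Pm.d) Pm.hd)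
  refine ⟨1 + C1 + C2, by linarith, fun τ δ a1 a2 a3 a4 w hw => ⟨?_, ?_⟩⟩
  · have h := h1 τ δ a1 a2 a3 a4 w hw
    have hw0 := (wm_pos 1 (-1) w).le
    have he := (es_pos w).le
    simp only [Pm.t, Pm.d] at h
    rw [abs_mul, abs_of_nonneg a1, abs_of_nonneg a3] at h
    calc _ ≤ _ := h
      _ = C1 * (τ * δ * es w * (δ * wm 1 (-1) w)) := by ring
      _ ≤ _ := mul_le_mul_of_nonneg_right (by linarith) (by positivity)
  · have h := h2 τ δ a1 a2 a3 a4 w hw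
    have hw0 := (wm_pos 1 (-1) w).le
    have he := (es_pos w).le
    simp only [Pm.t, Pm.d] at h
    rw [abs_mul, abs_of_nonneg a1, abs_of_nonneg a3] at h
    calc _ ≤ _ := h
      _ = C2 * (τ * δ * es w * (τ * wm 1 (-1) w)) := by ring
      _ ≤ _ := mul_le_mul_of_nonneg_right (by linarith) (by positivity)

/-- `D02 D20 - D11²`, improved. -/
theorem s0w {C C' τ δ : ℝ} {Cb : ℕ → ℕ → ℝ} {w : E2} (h : Cor C Cb τ δ w) (hw : w ∈ Om)
    (h0 : 1 ≤ C) (h0' : 1 ≤ C') (a1 : 0 ≤ τ) (a3 : 0 ≤ δ) (a4 : δ ≤ 1) (hs : C * δ ≤ 1 / 100)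
    (e1 : |EE τ δ 1 1 w| ≤ C' * (τ * δ * es w * (δ * wm 1 (-1) w)))
    (e2 : |EE τ δ 0 2 w| ≤ C' * (τ * δ * es w * (τ * wm 1 (-1) w))) :
    |RR τ δ 0 2 w * RR τ δ 2 0 w - RR τ δ 1 1 w ^ 2| ≤
      11 * (C * C') * τ * (τ * δ * es w) * wm 1 (-1) w * RR τ δ 2 0 w := by
  have h3 := h.R20_pos hs
  have h5 := es_pos w
  have hw0 := wm_pos 1 (-1) w
  have e : RR τ δ 0 2 w * RR τ δ 2 0 w - RR τ δ 1 1 w ^ 2 =
      EE τ δ 0 2 w * RR τ δ 2 0 w - (τ * ga w * RR τ δ 2 0 w + RR τ δ 1 1 w) * EE τ δ 1 1 w := by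
    unfold EE; ring
  have hom := h.om hw (by linarith) a1 a3 a4 hs
  have hρ : 0 ≤ τ * δ * es w := by positivity
  have h6 : |τ * ga w * RR τ δ 2 0 w + RR τ δ 1 1 w| ≤ 10 * C * τ * RR τ δ 2 0 w := by
    calc _ ≤ |τ * ga w * RR τ δ 2 0 w| + |RR τ δ 1 1 w| := abs_add_le _ _
      _ ≤ τ * C * RR τ δ 2 0 w + 9 * C * τ * RR τ δ 2 0 w := by
          refine add_le_add ?_ hom
          rw [abs_mul, abs_mul, abs_of_nonneg a1, abs_of_pos h3]
          exact mul_le_mul_of_nonneg_right (mul_le_mul_of_nonneg_left h.g a1) h3.le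
      _ = _ := by ring
  rw [e]
  calc _ ≤ |EE τ δ 0 2 w * RR τ δ 2 0 w| +
        |(τ * ga w * RR τ δ 2 0 w + RR τ δ 1 1 w) * EE τ δ 1 1 w| := abs_sub _ _
    _ ≤ C' * (τ * δ * es w * (τ * wm 1 (-1) w)) * RR τ δ 2 0 w +
        10 * C * τ * RR τ δ 2 0 w * (C' * (τ * δ * es w * (1 * wm 1 (-1) w))) := by
        rw [abs_mul, abs_mul, abs_of_pos h3]
        refine add_le_add (mul_le_mul_of_nonneg_right e2 h3.le)
          (mul_le_mul h6 (e1.trans ?_) (abs_nonneg _) (by positivity))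
        exact mul_le_mul_of_nonneg_left (mul_le_mul_of_nonneg_left
          (mul_le_mul_of_nonneg_right a4 hw0.le) hρ) (by linarith)
    _ = (C' + 10 * (C * C')) * (τ * (τ * δ * es w) * wm 1 (-1) w * RR τ δ 2 0 w) := by ring
    _ ≤ (11 * (C * C')) * (τ * (τ * δ * es w) * wm 1 (-1) w * RR τ δ 2 0 w) :=
        mul_le_mul_of_nonneg_right (by nlinarith) (by positivity)
    _ = _ := by ring

/-- `h / (1 + T²) ≤ 1 / T`. -/
theorem w1_le {w : E2} (hw : 0 < w.1) : wm 1 (-1) w ≤ 1 / w.1 := by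
  have h1 := hh_le_k1 w
  have h2 := k1_pos w
  have h3 := hh_pos w
  have e : wm 1 (-1) w = hh w / k1 w := by
    unfold wm
    rw [zpow_one, zpow_neg_one, ← div_eq_mul_inv]
  rw [e, div_le_div_iff₀ h2 hw, one_mul]
  have h4 : w.1 ^ 2 ≤ k1 w := by unfold k1; linarith
  refine abs_le_of_sq_le_sq' ?_ h2.le |>.2
  calc (hh w * w.1) ^ 2 = hh w ^ 2 * w.1 ^ 2 := by ring
    _ ≤ k1 w * k1 w := mul_le_mul h1 h4 (sq_nonneg _) h2.le
    _ = _ := by ring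

/-- **The determinant at large levels.** -/
theorem slow2 : ∃ C : ℝ, 1 ≤ C ∧ ∀ τ r₁ : ℝ, 0 < τ → τ ≤ 1 → 0 < r₁ → C * dl τ r₁ ≤ 1 / 100 →
    ∀ z : E2, 0 < z.2 → 0 < z.1 →
    |Dp τ r₁ 0 2 z * Dp τ r₁ 2 0 z - Dp τ r₁ 1 1 z ^ 2| ≤
      C * τ ^ 2 * (Dp τ r₁ 1 0 z * Dp τ r₁ 2 0 z) / z.1 := by
  obtain ⟨C, Cb, hC, -, hcor⟩ := cor
  obtain ⟨C', hC', hcor'⟩ := cor2
  have hCC : 1 ≤ C * C' := by nlinarith
  have hCC' : C ≤ C * C' := by nlinarith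
  refine ⟨12 * (C * C'), by linarith, fun τ r₁ hτ hτ1 hr hd z hz hz1 => ?_⟩
  have hdl : 0 < dl τ r₁ := by unfold dl; positivity
  have hd1 : C * dl τ r₁ ≤ 1 / 100 := by
    refine le_trans ?_ hd
    exact mul_le_mul_of_nonneg_right (by linarith) hdl.le
  have hdl1 : dl τ r₁ ≤ 1 := by
    have : 1 * dl τ r₁ ≤ C * dl τ r₁ := mul_le_mul_of_nonneg_right hC hdl.le
    linarith
  have hE : 0 < Real.exp (uu τ r₁ z) := Real.exp_pos _
  rcases lt_or_ge z.2 (r₁ * Real.exp (-1)) with h | h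
  · rw [Dp_in hτ hr _ _ hz h, Dp_in hτ hr _ _ hz h, Dp_in hτ hr _ _ hz h, Dp_in hτ hr _ _ hz h]
    have := Real.exp_pos z.1
    simp only [one_ne_zero, OfNat.ofNat_ne_zero, if_false, if_true]
    rw [show (0 : ℝ) * Real.exp z.1 - 0 ^ 2 = 0 by ring, abs_zero]
    positivity
  · have hOm : Zc τ r₁ z ∈ Om := by
      by_contra hc
      have h1 : (Zc τ r₁ z).2 < -1 := not_le.1 hc
      rw [in_or hr hz] at h1
      exact absurd h1 (not_lt.2 h)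
    set w := Zc τ r₁ z with hw
    have c := hcor τ (dl τ r₁) hτ.le hτ1 hdl.le hdl1 w hOm
    obtain ⟨e1, e2⟩ := hcor' τ (dl τ r₁) hτ.le hτ1 hdl.le hdl1 w hOm
    have h1 := s0w c hOm hC hC' hτ.le hdl.le hdl1 hd1 e1 e2
    rw [tdl_es hτ hr hz] at h1
    have h2 := c.R20_pos hd1
    have h3 := (c.R10_ge hd1).1
    have hw1 : w.1 = z.1 / (τ * z.2) := rfl
    have hw0 : 0 < w.1 := by rw [hw1]; positivity
    have h4 := w1_le hw0
    have h5 : 1 / w.1 = τ * z.2 / z.1 := by rw [hw1]; field_simp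
    rw [h5] at h4
    have e : Dp τ r₁ 0 2 z * Dp τ r₁ 2 0 z - Dp τ r₁ 1 1 z ^ 2 = Real.exp (uu τ r₁ z) ^ 2 *
        (RR τ (dl τ r₁) 0 2 w * RR τ (dl τ r₁) 2 0 w - RR τ (dl τ r₁) 1 1 w ^ 2) := by
      rw [Dp, Dp, Dp]; ring
    rw [e, abs_mul, abs_of_pos (pow_pos hE 2)]
    calc _ ≤ Real.exp (uu τ r₁ z) ^ 2 *
          (11 * (C * C') * τ * (1 / z.2) * wm 1 (-1) w * RR τ (dl τ r₁) 2 0 w) :=
          mul_le_mul_of_nonneg_left h1 (by positivity)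
      _ ≤ Real.exp (uu τ r₁ z) ^ 2 *
          (11 * (C * C') * τ * (1 / z.2) * (τ * z.2 / z.1) * RR τ (dl τ r₁) 2 0 w) := by
          gcongr
      _ = 11 * (C * C') * τ ^ 2 / z.1 * Real.exp (uu τ r₁ z) ^ 2 *
          (1 * RR τ (dl τ r₁) 2 0 w) := by
          field_simp
      _ ≤ 11 * (C * C') * τ ^ 2 / z.1 * Real.exp (uu τ r₁ z) ^ 2 *
          (12 / 11 * RR τ (dl τ r₁) 1 0 w * RR τ (dl τ r₁) 2 0 w) := by
          gcongr
          linarith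
      _ = _ := by
          rw [Dp, Dp]
          ring

end Vale.Agent.P088.R2.H53.RS
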